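import Vale.Agent.Lib.P078.Thin.Reduction

/-!
# P078: reduction of the so-paving conjecture to the corner that carries the normal central functionals

For every MASA `A` of every von Neumann algebra `M` there is a projection `z ∈ A` such that all normal `A`-central positive functionals vanish on `1 - z`,
they separate the projections of `A z` from `0`, and so-paving of the self-adjoint elements of `z M z` with `r` pieces at a level `ε < ε'` gives `n_{A ⊆ M}(ε') ≤ r + ⌈1/ε'⌉`.
-/

namespace Vale.Agent.Results.P078.AReduction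

open Vale.Agent.Lib.P078

universe u

theorem result (H : Type u) [NormedAddCommGroup H] [InnerProductSpace ℂ H] [CompleteSpace H]
    (M : VonNeumannAlgebra H) (A : StarSubalgebra ℂ (H →L[ℂ] H)) (hM : IsMASA M A) :
    ∃ z ∈ A, IsStarProjection z ∧
      (∀ ρ : (H →L[ℂ] H) →L[ℂ] ℂ, IsCentralFunctional M A ρ → IsNormalOn M ρ → ρ (1 - z) = 0) ∧
      (∀ f ∈ A, IsStarProjection f → z * f = f → f ≠ 0 →
        ∃ ρ : (H →L[ℂ] H) →L[ℂ] ℂ, IsCentralFunctional M A ρ ∧ IsNormalOn M ρ ∧ ρ f ≠ 0) ∧
      ∀ (ε ε' : ℝ) (r : ℕ), 0 < ε → ε < ε' → 1 ≤ r →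
        (∀ x ∈ M, IsSelfAdjoint x → z * x * z = x → SoPavable M A x ε r) →
        pavingNumber M A ε' ≤ ((r + ⌈1 / ε'⌉₊ : ℕ) : ℕ∞) :=
  exists_normal_corner hM

end Vale.Agent.Results.P078.AReduction
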