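import Vale.Agent.Lib.P078.Thin.Main

/-!
# P078: MASAs of `B(L) ⊗ N` containing a diffuse MASA of `B(L)`

Let `AL` be a diffuse MASA of `B(L)`, `π` a normal unital star representation of `B(L)` on `H`, `M` any von Neumann algebra on `H`
containing `π (B(L))` and `A` any MASA of `M` containing `π AL`.  Then `n_{A ⊆ M}(ε) = ⌈1/ε⌉` for every `ε > 0`.
-/

namespace Vale.Agent.Results.P078.AmplifiedMasas

open Vale.Agent.Lib.P078
open InnerProductSpace (rankOne)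

universe u v

theorem result (L : Type u) [NormedAddCommGroup L] [InnerProductSpace ℂ L] [CompleteSpace L]
    (AL : StarSubalgebra ℂ (L →L[ℂ] L)) (hL : IsMASA (allOps L) AL) (hd : IsDiffuse AL)
    (H : Type v) [NormedAddCommGroup H] [InnerProductSpace ℂ H] [CompleteSpace H] [Nontrivial H]
    (π : (L →L[ℂ] L) →⋆ₐ[ℂ] (H →L[ℂ] H))
    (hnormal : ∀ (ξ : H) (δ : ℝ), 0 < δ → ∃ (n : ℕ) (h : Fin n → L), Orthonormal ℂ h ∧
      ‖ξ - π (∑ i, rankOne ℂ (h i) (h i)) ξ‖ < δ)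
    (M : VonNeumannAlgebra H) (hπM : ∀ T, π T ∈ M)
    (A : StarSubalgebra ℂ (H →L[ℂ] H)) (hM : IsMASA M A) (hπA : ∀ T ∈ AL, π T ∈ A)
    (ε : ℝ) (h0 : 0 < ε) :
    pavingNumber M A ε = ((⌈1 / ε⌉₊ : ℕ) : ℕ∞) :=
  pavingNumber_of_thin hM (isThin_of_rep (isThin_of_diffuse hL hd) π hπM hπA hnormal) h0

end Vale.Agent.Results.P078.AmplifiedMasas
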