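import Vale.Agent.Results.P078.ANoNormalCentral
import Vale.Agent.Results.P078.AReduction
import Vale.Agent.Results.P078.AmplifiedMasas

/-!
# P078: the results on the so-paving number, in one statement

1. `n_{A ⊆ M}(ε) = ⌈1/ε⌉` for every MASA `A` of every von Neumann algebra `M` without nonzero normal `A`-central positive functionals.
2. Every diffuse MASA of `B(H)` is of this kind.
3. The same value for all MASAs of `B(L) ⊗ N` that contain a diffuse MASA of `B(L)`.
4. For an arbitrary MASA: reduction of so-paving to the corner `z M z` on which the normal central functionals are faithful.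
-/

namespace Vale.Agent.Results.P078.A0_Combined

open Vale.Agent.Lib.P078
open InnerProductSpace (rankOne)

universe u v

/-- Part 1: the exact paving number for MASAs without normal central functionals. -/
def S1 : Prop :=
  ∀ (H : Type u) [NormedAddCommGroup H] [InnerProductSpace ℂ H] [CompleteSpace H]
    [Nontrivial H] (M : VonNeumannAlgebra H) (A : StarSubalgebra ℂ (H →L[ℂ] H)),
    IsMASA M A → NoNormalCentral M A →
      ∀ ε : ℝ, 0 < ε → pavingNumber M A ε = ((⌈1 / ε⌉₊ : ℕ) : ℕ∞)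

/-- Part 2: diffuse MASAs of `B(H)` have no normal central functionals. -/
def S2 : Prop :=
  ∀ (H : Type u) [NormedAddCommGroup H] [InnerProductSpace ℂ H] [CompleteSpace H]
    (A : StarSubalgebra ℂ (H →L[ℂ] H)),
    IsMASA (allOps H) A → IsDiffuse A → NoNormalCentral (allOps H) A

/-- Part 3: MASAs containing the image of a diffuse MASA of `B(L)` under a normal representation. -/
def S3 : Prop :=
  ∀ (L : Type u) [NormedAddCommGroup L] [InnerProductSpace ℂ L] [CompleteSpace L]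
    (AL : StarSubalgebra ℂ (L →L[ℂ] L)), IsMASA (allOps L) AL → IsDiffuse AL →
    ∀ (H : Type v) [NormedAddCommGroup H] [InnerProductSpace ℂ H] [CompleteSpace H]
      [Nontrivial H] (π : (L →L[ℂ] L) →⋆ₐ[ℂ] (H →L[ℂ] H)),
    (∀ (ξ : H) (δ : ℝ), 0 < δ → ∃ (n : ℕ) (h : Fin n → L), Orthonormal ℂ h ∧
      ‖ξ - π (∑ i, rankOne ℂ (h i) (h i)) ξ‖ < δ) →
    ∀ M : VonNeumannAlgebra H, (∀ T, π T ∈ M) →
    ∀ A : StarSubalgebra ℂ (H →L[ℂ] H), IsMASA M A → (∀ T ∈ AL, π T ∈ A) →
    ∀ ε : ℝ, 0 < ε → pavingNumber M A ε = ((⌈1 / ε⌉₊ : ℕ) : ℕ∞)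

/-- Part 4: the reduction to the corner carrying the normal central functionals. -/
def S4 : Prop :=
  ∀ (H : Type u) [NormedAddCommGroup H] [InnerProductSpace ℂ H] [CompleteSpace H]
    (M : VonNeumannAlgebra H) (A : StarSubalgebra ℂ (H →L[ℂ] H)), IsMASA M A →
    ∃ z ∈ A, IsStarProjection z ∧
      (∀ ρ : (H →L[ℂ] H) →L[ℂ] ℂ, IsCentralFunctional M A ρ → IsNormalOn M ρ →
        ρ (1 - z) = 0) ∧
      (∀ f ∈ A, IsStarProjection f → z * f = f → f ≠ 0 →
        ∃ ρ : (H →L[ℂ] H) →L[ℂ] ℂ, IsCentralFunctional M A ρ ∧ IsNormalOn M ρ ∧ ρ f ≠ 0) ∧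
      ∀ (ε ε' : ℝ) (r : ℕ), 0 < ε → ε < ε' → 1 ≤ r →
        (∀ x ∈ M, IsSelfAdjoint x → z * x * z = x → SoPavable M A x ε r) →
        pavingNumber M A ε' ≤ ((r + ⌈1 / ε'⌉₊ : ℕ) : ℕ∞)

theorem result : S1.{u} ∧ S2.{u} ∧ S3.{u, v} ∧ S4.{u} :=
  ⟨ANoNormalCentral.result.1, ANoNormalCentral.result.2,
    fun L _ _ _ AL hL hd H _ _ _ _ π hn M hπM A hM hπA ε h0 =>
      AmplifiedMasas.result L AL hL hd H π hn M hπM A hM hπA ε h0,
    fun H _ _ _ M A hM => AReduction.result H M A hM⟩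

end Vale.Agent.Results.P078.A0_Combined
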