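import Vale.Agent.Lib.P078.Thin.Main
import Vale.Agent.Lib.P078.Thin.Singular
import Vale.Agent.Lib.P078.Thin.NormalPart
import Vale.Agent.Lib.P078.Thin.Examples

/-!
# P078: MASAs without normal central functionals

Let `A` be a MASA of a von Neumann algebra `M ⊆ B(H)` such that the only positive functional that is normal on `M` and commutes with `A` on `M` is zero
(equivalently: for no nonzero projection `z ∈ A` is `A z` the range of a normal conditional expectation of `z M z`).
Then `n_{A ⊆ M}(ε) = ⌈1/ε⌉` for every `ε > 0`.  The second half records that every diffuse MASA of `B(H)` satisfies the hypothesis.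
-/

namespace Vale.Agent.Results.P078.ANoNormalCentral

open Vale.Agent.Lib.P078

universe u

theorem result :
    (∀ (H : Type u) [NormedAddCommGroup H] [InnerProductSpace ℂ H] [CompleteSpace H]
      [Nontrivial H] (M : VonNeumannAlgebra H) (A : StarSubalgebra ℂ (H →L[ℂ] H)),
      IsMASA M A → NoNormalCentral M A →
        ∀ ε : ℝ, 0 < ε → pavingNumber M A ε = ((⌈1 / ε⌉₊ : ℕ) : ℕ∞)) ∧
    (∀ (H : Type u) [NormedAddCommGroup H] [InnerProductSpace ℂ H] [CompleteSpace H]
      (A : StarSubalgebra ℂ (H →L[ℂ] H)),
      IsMASA (allOps H) A → IsDiffuse A → NoNormalCentral (allOps H) A) := by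
  refine ⟨fun H _ _ _ _ M A hM hno ε h0 => ?_, fun H _ _ _ A hM hd => ?_⟩
  · exact pavingNumber_of_thin hM (isThin_of_allCentralSingular hM.1 hM.2.1
      (allCentralSingular_of_noNormalCentral hM.1 hM.2.1 hno)) h0
  · exact noNormalCentral_of_allCentralSingular
      (allCentralSingular_of_isThin hM.1 (isThin_of_diffuse hM hd))

end Vale.Agent.Results.P078.ANoNormalCentral
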