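import Vale.Agent.Lib.P078.Thin.Main

/-!
# P078: the so-paving number of every thin MASA of every von Neumann algebra

A MASA `A` of a von Neumann algebra `M ⊆ B(H)` is called thin if `1` is a strong limit of projections `q ∈ M` that can be
paved to `0` in norm over `A` (for all finite `F ⊆ H` and `δ, τ > 0` there are a projection `q ∈ M` and a finite partition `f` in `A`
with `‖(1 - q) ξ‖ < δ` on `F` and `‖S_f(q)‖ ≤ τ`).  For every thin MASA, `n_{A ⊆ M}(ε) = ⌈1/ε⌉` for every `ε > 0`.
-/

namespace Vale.Agent.Results.P078.AllThinMasas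

open Vale.Agent.Lib.P078

universe u

theorem result (H : Type u) [NormedAddCommGroup H] [InnerProductSpace ℂ H] [CompleteSpace H]
    [Nontrivial H] (M : VonNeumannAlgebra H) (A : StarSubalgebra ℂ (H →L[ℂ] H))
    (hM : IsMASA M A) (hthin : IsThin M A) (ε : ℝ) (h0 : 0 < ε) :
    pavingNumber M A ε = ((⌈1 / ε⌉₊ : ℕ) : ℕ∞) :=
  pavingNumber_of_thin hM hthin h0

end Vale.Agent.Results.P078.AllThinMasas
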