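import Vale.Agent.Lib.P078.General
import Vale.Agent.Lib.P078.Main

/-!
# P078: the so-paving number of every diffuse MASA of `B(H)`

Let `H` be any nonzero complex Hilbert space (separable or not) and `A` any MASA of `B(H)` without
minimal projections.  Then `n_{A ⊆ B(H)}(ε) = ⌈1/ε⌉` for every `ε > 0`.  The second half of the
statement records that such MASAs exist: the multiplication algebra `L^∞[0,1]` on `L^2[0,1]`.
-/

namespace Vale.Agent.Results.P078.DiffuseMasaGeneral

open MeasureTheory Vale.Agent.Lib.P078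
open scoped ENNReal

universe u

theorem result :
    (∀ (H : Type u) [NormedAddCommGroup H] [InnerProductSpace ℂ H] [CompleteSpace H]
      [Nontrivial H] (A : StarSubalgebra ℂ (H →L[ℂ] H)),
      IsMASA (allOps H) A → IsDiffuse A →
        ∀ ε : ℝ, 0 < ε → pavingNumber (allOps H) A ε = ((⌈1 / ε⌉₊ : ℕ) : ℕ∞)) ∧
    ∃ A : StarSubalgebra ℂ (Lp ℂ 2 (volume.restrict (Set.Icc (0 : ℝ) 1)) →L[ℂ]
        Lp ℂ 2 (volume.restrict (Set.Icc (0 : ℝ) 1))),
      (∀ T, T ∈ A ↔ ∃ f : Lp ℂ ∞ (volume.restrict (Set.Icc (0 : ℝ) 1)), ∀ g, T g = f • g) ∧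
      IsMASA (allOps _) A ∧ IsDiffuse A := by
  refine ⟨fun H _ _ _ _ A hM hd ε h0 => pavingNumber_diffuse hM hd h0, ?_⟩
  have : IsProbabilityMeasure (volume.restrict (Set.Icc (0 : ℝ) 1)) := ⟨by simp⟩
  exact ⟨linftyAlg (volume.restrict (Set.Icc (0 : ℝ) 1)), mem_linftyAlg_iff, linfty_isMASA,
    isDiffuse_of_fine linftyAlg_comm (oneVec _) linfty_cyclic
      (linfty_fine hasFinePartitions_unitInterval)⟩

end Vale.Agent.Results.P078.DiffuseMasaGeneral
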