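import Vale.Agent.Lib.P078.Main

/-!
# P078: the so-paving number of the diffuse MASA `L^∞[0,1]` of `B(L^2[0,1])`

Let `A` be the algebra of multiplication operators by `L^∞[0,1]` functions on `L^2[0,1]`. Then
* `A` is a MASA of the von Neumann algebra `B(L^2[0,1])`;
* for every `0 < ε < 1` one has `⌈1/ε⌉ ≤ n_{A ⊆ B(L^2)}(ε) ≤ ⌊1/ε⌋ + 1`;
* hence `n_{A ⊆ B(L^2)}(ε) = ⌈1/ε⌉` whenever `1/ε` is not an integer.
-/

namespace Vale.Agent.Results.P078.DiffuseMasaUnitInterval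

open MeasureTheory Vale.Agent.Lib.P078
open scoped ENNReal

theorem result :
    ∃ A : StarSubalgebra ℂ (Lp ℂ 2 (volume.restrict (Set.Icc (0 : ℝ) 1)) →L[ℂ]
        Lp ℂ 2 (volume.restrict (Set.Icc (0 : ℝ) 1))),
      (∀ T, T ∈ A ↔ ∃ f : Lp ℂ ∞ (volume.restrict (Set.Icc (0 : ℝ) 1)), ∀ g, T g = f • g) ∧
      IsMASA (allOps _) A ∧
      ∀ ε : ℝ, 0 < ε → ε < 1 →
        ((⌈1 / ε⌉₊ : ℕ) : ℕ∞) ≤ pavingNumber (allOps _) A ε ∧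
        pavingNumber (allOps _) A ε ≤ ((⌊1 / ε⌋₊ + 1 : ℕ) : ℕ∞) ∧
        ((∀ k : ℕ, (k : ℝ) ≠ 1 / ε) →
          pavingNumber (allOps _) A ε = ((⌈1 / ε⌉₊ : ℕ) : ℕ∞)) := by
  refine ⟨linftyAlg (volume.restrict (Set.Icc (0 : ℝ) 1)), mem_linftyAlg_iff, linfty_isMASA,
    fun ε h0 _ => ?_⟩
  obtain ⟨h1, h2⟩ := pavingNumber_unitInterval h0
  refine ⟨h1, h2, fun hk => le_antisymm ?_ h1⟩
  have h3 : ⌊1 / ε⌋₊ + 1 = ⌈1 / ε⌉₊ := by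
    have hpos : (0 : ℝ) ≤ 1 / ε := by positivity
    have hfl : (⌊1 / ε⌋₊ : ℝ) ≤ 1 / ε := Nat.floor_le hpos
    have hlt : (⌊1 / ε⌋₊ : ℝ) < 1 / ε := lt_of_le_of_ne hfl (hk _)
    apply le_antisymm
    · exact Nat.succ_le_of_lt (Nat.lt_ceil.mpr hlt)
    · exact Nat.ceil_le_floor_add_one _
  rw [← h3]
  exact h2

end Vale.Agent.Results.P078.DiffuseMasaUnitInterval
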